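import Mathlib

namespace Vale.Agent.P252

open Matrix Finset

variable {m : ℕ}

/-- indicator of coordinate `0` -/
def ev (i : Fin (m + 1)) : ℝ := if i = 0 then 1 else 0

/-- structured matrices -/
def Mx (y : Fin (m + 1) → ℝ) (α β γ₁ γ₂ δ : ℝ) : Matrix (Fin (m + 1)) (Fin (m + 1)) ℝ :=
  Matrix.of fun i j => α * ((if i = j then 1 else 0) - ev i * ev j) + β * y i * y j
    + γ₁ * ev i * y j + γ₂ * y i * ev j + δ * ev i * ev j

lemma sum_ev_mul (f : Fin (m + 1) → ℝ) : ∑ k, ev k * f k = f 0 := by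
  simp [ev]

lemma ev_zero : ev (0 : Fin (m + 1)) = 1 := by simp [ev]

lemma Mx_mulVec (y : Fin (m + 1) → ℝ) (α β γ₁ γ₂ δ : ℝ) (z : Fin (m + 1) → ℝ) (i : Fin (m + 1)) :
    ∑ k, Mx y α β γ₁ γ₂ δ i k * z k =
      α * (z i - ev i * z 0) + (β * y i + γ₁ * ev i) * (∑ k, y k * z k)
        + (γ₂ * y i + δ * ev i) * z 0 := by
  have h1 : ∀ k, Mx y α β γ₁ γ₂ δ i k * z k =
      α * (if i = k then z k else 0) + (β * y i + γ₁ * ev i) * (y k * z k)
        + (γ₂ * y i + δ * ev i - α * ev i) * (ev k * z k) := by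
    intro k
    simp only [Mx, Matrix.of_apply]
    split_ifs <;> ring
  simp only [h1, Finset.sum_add_distrib, ← Finset.mul_sum, sum_ev_mul]
  simp only [Finset.sum_ite_eq, Finset.mem_univ, if_true]
  ring

lemma Mx_mul (y : Fin (m + 1) → ℝ) (hy : y 0 = 0) (ρ : ℝ) (hρ : ρ = ∑ k, y k * y k)
    (α β γ₁ γ₂ δ α' β' γ₁' γ₂' δ' : ℝ) :
    Mx y α β γ₁ γ₂ δ * Mx y α' β' γ₁' γ₂' δ' =
      Mx y (α * α') (α * β' + β * α' + β * ρ * β' + γ₂ * γ₁')
        (γ₁ * α' + γ₁ * ρ * β' + δ * γ₁') (α * γ₂' + β * ρ * γ₂' + γ₂ * δ')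
        (γ₁ * ρ * γ₂' + δ * δ') := by
  ext i j
  rw [Matrix.mul_apply, Mx_mulVec]
  have h2 : ∑ k, y k * Mx y α' β' γ₁' γ₂' δ' k j = α' * y j + β' * ρ * y j + γ₂' * ρ * ev j := by
    have h1 : ∀ k, y k * Mx y α' β' γ₁' γ₂' δ' k j =
        α' * (if k = j then y k else 0) + (β' * y j + γ₂' * ev j) * (y k * y k)
          + (γ₁' * y j + δ' * ev j - α' * ev j) * (ev k * y k) := by
      intro k
      simp only [Mx, Matrix.of_apply]
      split_ifs <;> ring
    simp only [h1, Finset.sum_add_distrib, ← Finset.mul_sum, sum_ev_mul, ← hρ, hy]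
    simp only [Finset.sum_ite_eq', Finset.mem_univ, if_true]
    ring
  rw [h2]
  have h3 : Mx y α' β' γ₁' γ₂' δ' 0 j = γ₁' * y j + δ' * ev j := by
    simp only [Mx, Matrix.of_apply, hy, ev_zero]
    by_cases h : j = 0
    · subst h; simp [ev_zero]
    · have : ¬ (0 = j) := fun h' => h h'.symm
      simp [ev, h, this]
  rw [h3]
  simp only [Mx, Matrix.of_apply]
  ring

lemma Mx_one (y : Fin (m + 1) → ℝ) : Mx y 1 0 0 0 1 = 1 := by
  ext i j
  simp [Mx, Matrix.one_apply]

lemma Mx_pair (y : Fin (m + 1) → ℝ) (hy : y 0 = 0) (ρ : ℝ) (hρ : ρ = ∑ k, y k * y k)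
    (α β γ₁ γ₂ δ α' β' γ₁' γ₂' δ' : ℝ) :
    ∑ i, ∑ j, Mx y α β γ₁ γ₂ δ i j * Mx y α' β' γ₁' γ₂' δ' i j =
      m * (α * α') + ρ * (α * β' + β * α') + ρ ^ 2 * (β * β') + ρ * (γ₁ * γ₁' + γ₂ * γ₂')
        + δ * δ' := by
  have h1 : ∀ i, ∑ j, Mx y α β γ₁ γ₂ δ i j * Mx y α' β' γ₁' γ₂' δ' i j =
      (Mx y α β γ₁ γ₂ δ * Mx y α' β' γ₂' γ₁' δ') i i := by
    intro i
    rw [Matrix.mul_apply]
    refine Finset.sum_congr rfl fun j _ => ?_
    congr 1
    simp only [Mx, Matrix.of_apply, eq_comm (a := j)]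
    ring
  simp only [h1, Mx_mul y hy ρ hρ]
  have h2 : ∀ (a b c d e : ℝ) (i : Fin (m + 1)), Mx y a b c d e i i =
      a + b * (y i * y i) + (c + d) * (ev i * y i) + (e - a) * (ev i * ev i) := by
    intro a b c d e i
    simp only [Mx, Matrix.of_apply, if_true]
    ring
  simp only [h2, Finset.sum_add_distrib, ← Finset.mul_sum, sum_ev_mul, ← hρ, hy, ev_zero]
  simp
  ring

lemma Mx_det (y : Fin (m + 1) → ℝ) (hy : y 0 = 0) (ρ : ℝ) (hρ : ρ = ∑ k, y k * y k)
    (α β γ₁ γ₂ δ : ℝ) (hα : α ≠ 0) :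
    (Mx y α β γ₁ γ₂ δ).det = α ^ (m + 1) / α ^ 2 * ((α + β * ρ) * δ - γ₁ * γ₂ * ρ) := by
  let A : Matrix (Fin (m + 1)) (Fin 2) ℝ := Matrix.of fun i k => ![y i, ev i] k
  let B : Matrix (Fin 2) (Fin (m + 1)) ℝ := Matrix.of fun k j =>
    ![(β * y j + γ₂ * ev j) / α, (γ₁ * y j + (δ - α) * ev j) / α] k
  have h1 : Mx y α β γ₁ γ₂ δ = α • (1 + A * B) := by
    ext i j
    simp only [Mx, A, B, Matrix.of_apply, Matrix.smul_apply, Matrix.add_apply, Matrix.mul_apply,
      Fin.sum_univ_two, Matrix.one_apply, smul_eq_mul, Matrix.cons_val_zero, Matrix.cons_val_one]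
    field_simp
    ring
  rw [h1, Matrix.det_smul, Matrix.det_one_add_mul_comm, Matrix.det_fin_two]
  have e1 : ∀ c d : ℝ, ∑ j, (c * y j + d * ev j) / α * y j = c * ρ / α := by
    intro c d
    have : ∀ j, (c * y j + d * ev j) / α * y j = c / α * (y j * y j) + d / α * (ev j * y j) := by
      intro j; ring
    simp only [this, Finset.sum_add_distrib, ← Finset.mul_sum, sum_ev_mul, ← hρ, hy]
    ring
  have e2 : ∀ c d : ℝ, ∑ j, (c * y j + d * ev j) / α * ev j = d / α := by
    intro c d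
    have : ∀ j, (c * y j + d * ev j) / α * ev j = c / α * (ev j * y j) + d / α * (ev j * ev j) := by
      intro j; ring
    simp only [this, Finset.sum_add_distrib, ← Finset.mul_sum, sum_ev_mul, hy, ev_zero]
    ring
  simp only [A, B, Matrix.add_apply, Matrix.mul_apply, Matrix.of_apply, Matrix.one_apply,
    Matrix.cons_val_zero, Matrix.cons_val_one, e1, e2, Fintype.card_fin]
  simp
  field_simp
  ring

lemma Mx_posDef (y : Fin (m + 1) → ℝ) (hy : y 0 = 0) (ρ : ℝ) (hρ : ρ = ∑ k, y k * y k)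
    (α β γ δ : ℝ) (hα : 0 < α) (hδ : 0 < δ) (hd : 0 < (α + β * ρ) * δ - γ * γ * ρ) :
    (Mx y α β γ γ δ).PosDef := by
  refine Matrix.PosDef.of_dotProduct_mulVec_pos ?_ ?_
  · ext i j
    simp only [Mx, Matrix.conjTranspose_apply, Matrix.of_apply, star_trivial, eq_comm (a := j)]
    ring
  · intro z hz
    simp only [dotProduct, Matrix.mulVec, star_trivial, Mx_mulVec]
    set s := ∑ k, y k * z k with hs
    set z' : Fin (m + 1) → ℝ := fun i => z i - ev i * z 0 with hz'
    have h1 : ∀ i, z i * (α * (z i - ev i * z 0) + (β * y i + γ * ev i) * s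
        + (γ * y i + δ * ev i) * z 0) = α * (z' i * z' i) + (β * s + γ * z 0) * (y i * z i)
          + (γ * s + δ * z 0) * (ev i * z i) + α * z 0 * (ev i * z' i) := by
      intro i; simp only [hz']; ring
    have hz0 : z' 0 = 0 := by simp [hz', ev_zero]
    simp only [h1, Finset.sum_add_distrib, ← Finset.mul_sum, sum_ev_mul, ← hs, hz0]
    have hs' : s = ∑ k, y k * z' k := by
      have : ∀ k, y k * z' k = y k * z k - z 0 * (ev k * y k) := by
        intro k; simp only [hz']; ring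
      simp only [this, Finset.sum_sub_distrib, ← Finset.mul_sum, sum_ev_mul, hy, ← hs]
      ring
    set q := ∑ i, z' i * z' i with hq
    have hq0 : 0 ≤ q := Finset.sum_nonneg fun i _ => mul_self_nonneg _
    have hρ0 : 0 ≤ ρ := hρ ▸ Finset.sum_nonneg fun i _ => mul_self_nonneg _
    have hcs : s ^ 2 ≤ ρ * q := by
      have := Finset.sum_mul_sq_le_sq_mul_sq Finset.univ y z'
      rw [hs', hρ, hq]
      simpa only [sq] using this
    have key : δ * (α * q + (β * s + γ * z 0) * s + (γ * s + δ * z 0) * z 0 + α * z 0 * 0) =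
        (δ * α * q + (β * δ - γ * γ) * s ^ 2) + (γ * s + δ * z 0) ^ 2 := by ring
    have hpos : 0 < (δ * α * q + (β * δ - γ * γ) * s ^ 2) + (γ * s + δ * z 0) ^ 2 := by
      rcases hq0.lt_or_eq with hq1 | hq1
      · have : 0 < δ * α * q + (β * δ - γ * γ) * s ^ 2 := by
          rcases le_or_gt 0 (β * δ - γ * γ) with hb | hb
          · have := mul_nonneg hb (sq_nonneg s)
            have := mul_pos (mul_pos hδ hα) hq1
            linarith
          · have h3 : (β * δ - γ * γ) * (ρ * q) ≤ (β * δ - γ * γ) * s ^ 2 :=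
              mul_le_mul_of_nonpos_left hcs hb.le
            have h4 := mul_pos hd hq1
            nlinarith
        have := sq_nonneg (γ * s + δ * z 0)
        linarith
      · have hz'0 : ∀ i, z' i = 0 := by
          intro i
          have := (Finset.sum_eq_zero_iff_of_nonneg
            (fun i _ => mul_self_nonneg (z' i))).1 (hq ▸ hq1.symm) i (Finset.mem_univ i)
          exact mul_self_eq_zero.1 this
        have hs0 : s = 0 := by rw [hs']; simp [hz'0]
        have hz00 : z 0 ≠ 0 := by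
          intro h0
          apply hz
          funext i
          have := hz'0 i
          simp only [hz', h0, mul_zero, sub_zero] at this
          simpa using this
        rw [← hq1, hs0]
        have : 0 < (δ * z 0) ^ 2 := by positivity
        simpa using this
    rw [← key] at hpos
    exact (mul_pos_iff_of_pos_left hδ).1 hpos

end Vale.Agent.P252
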