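import Vale.Agent.P252.Defs
import Vale.Agent.P252.Mat

namespace Vale.Agent.P252

open Matrix Finset

variable {m : ℕ}

def yv (x : Fin (m + 1) → ℝ) : Fin (m + 1) → ℝ := fun i => x i - ev i * x 0

lemma yv_zero (x : Fin (m + 1) → ℝ) : yv x 0 = 0 := by simp [yv, ev_zero]

def rho (x : Fin (m + 1) → ℝ) : ℝ := ∑ k, yv x k * yv x k

lemma rho_nonneg (x : Fin (m + 1) → ℝ) : 0 ≤ rho x :=
  Finset.sum_nonneg fun _ _ => mul_self_nonneg _

noncomputable def pr (k : Fin (m + 1)) : (Fin (m + 1) → ℝ) →L[ℝ] ℝ := ContinuousLinearMap.proj k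

lemma pr_apply (k : Fin (m + 1)) (h : Fin (m + 1) → ℝ) : pr k h = h k := rfl

noncomputable def Drho (x : Fin (m + 1) → ℝ) : (Fin (m + 1) → ℝ) →L[ℝ] ℝ :=
  ∑ k, (2 * yv x k) • pr k

lemma has_yv (x : Fin (m + 1) → ℝ) (k : Fin (m + 1)) :
    HasFDerivAt (fun x => yv x k) (pr k - ev k • pr 0) x := by
  have h1 : HasFDerivAt (fun x : Fin (m + 1) → ℝ => x k) (pr k) x := (pr k).hasFDerivAt
  have h2 : HasFDerivAt (fun x : Fin (m + 1) → ℝ => x 0) (pr 0) x := (pr 0).hasFDerivAt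
  exact h1.sub (h2.const_mul (ev k))

lemma has_rho (x : Fin (m + 1) → ℝ) : HasFDerivAt rho (Drho x) x := by
  have h := HasFDerivAt.fun_sum (u := Finset.univ)
    (fun k _ => (has_yv x k).mul (has_yv x k))
  refine HasFDerivAt.congr_fderiv h ?_
  ext1 z
  simp only [Drho, ContinuousLinearMap.sum_apply, _root_.smul_apply, pr_apply,
    _root_.add_apply, _root_.sub_apply, smul_eq_mul]
  have : ∀ k, yv x k * (z k - ev k * z 0) + yv x k * (z k - ev k * z 0) =
      2 * yv x k * z k - 2 * z 0 * (ev k * yv x k) := by intro k; ring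
  simp only [this, Finset.sum_sub_distrib, ← Finset.mul_sum, sum_ev_mul, yv_zero]
  simp

lemma contDiff_rho : ContDiff ℝ ((⊤ : ℕ∞) : WithTop ℕ∞) (rho (m := m)) := by
  unfold rho yv
  fun_prop

noncomputable def L2 (x : Fin (m + 1) → ℝ) (α β : ℝ) : (Fin (m + 1) → ℝ) →L[ℝ] ℝ :=
  α • Drho x + β • pr 0

lemma L2_apply (x : Fin (m + 1) → ℝ) (α β : ℝ) (h : Fin (m + 1) → ℝ) :
    L2 x α β h = α * Drho x h + β * h 0 := rfl

def Has2 (f : (Fin (m + 1) → ℝ) → ℝ) (x : Fin (m + 1) → ℝ) (α β : ℝ) : Prop :=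
  HasFDerivAt f (L2 x α β) x

namespace Has2

variable {f g : (Fin (m + 1) → ℝ) → ℝ} {x : Fin (m + 1) → ℝ} {α β α' β' : ℝ}

lemma congr (h : Has2 f x α β) (h1 : α = α') (h2 : β = β') : Has2 f x α' β' := h1 ▸ h2 ▸ h

lemma of_rho (x : Fin (m + 1) → ℝ) : Has2 rho x 1 0 := by
  simpa [Has2, L2] using has_rho x

lemma of_t (x : Fin (m + 1) → ℝ) : Has2 (fun x => x 0) x 0 1 := by
  have h2 : HasFDerivAt (fun x : Fin (m + 1) → ℝ => x 0) (pr 0) x := (pr 0).hasFDerivAt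
  simpa [Has2, L2] using h2

lemma comp {φ : ℝ → ℝ} {φ' : ℝ} (hφ : HasDerivAt φ φ' (f x)) (h : Has2 f x α β) :
    Has2 (fun x => φ (f x)) x (φ' * α) (φ' * β) := by
  have := hφ.comp_hasFDerivAt x h
  refine HasFDerivAt.congr_fderiv this ?_
  ext1 z
  simp only [L2_apply, _root_.smul_apply, _root_.add_apply, smul_eq_mul]
  ring

lemma comp_rho {φ : ℝ → ℝ} {φ' : ℝ} (hφ : HasDerivAt φ φ' (rho x)) :
    Has2 (fun x => φ (rho x)) x φ' 0 :=
  (comp hφ (of_rho x)).congr (by ring) (by ring)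

lemma add (h : Has2 f x α β) (h' : Has2 g x α' β') :
    Has2 (fun x => f x + g x) x (α + α') (β + β') := by
  have := HasFDerivAt.add h h'
  refine HasFDerivAt.congr_fderiv this ?_
  ext1 z
  simp only [L2_apply, _root_.smul_apply, _root_.add_apply, smul_eq_mul]
  ring

lemma mul (h : Has2 f x α β) (h' : Has2 g x α' β') :
    Has2 (fun x => f x * g x) x (f x * α' + g x * α) (f x * β' + g x * β) := by
  have := HasFDerivAt.mul h h'
  refine HasFDerivAt.congr_fderiv this ?_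
  ext1 z
  simp only [L2_apply, _root_.smul_apply, _root_.add_apply, smul_eq_mul]
  ring

lemma const_mul (c : ℝ) (h : Has2 f x α β) : Has2 (fun x => c * f x) x (c * α) (c * β) := by
  have := HasFDerivAt.const_mul h c
  refine HasFDerivAt.congr_fderiv this ?_
  ext1 z
  simp only [L2_apply, _root_.smul_apply, _root_.add_apply, smul_eq_mul]
  ring

lemma apply_single (x : Fin (m + 1) → ℝ) (α β : ℝ) (j : Fin (m + 1)) :
    L2 x α β (Pi.single j 1) = 2 * α * yv x j + β * ev j := by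
  simp only [L2_apply, Drho, ContinuousLinearMap.sum_apply, _root_.smul_apply, pr_apply,
    smul_eq_mul, Pi.single_apply, mul_ite, mul_one, mul_zero,
    Finset.sum_ite_eq', Finset.mem_univ, if_true, ev, eq_comm (a := (0 : Fin (m + 1)))]
  ring

lemma pd_eq (h : Has2 f x α β) (j : Fin (m + 1)) : pd j f x = 2 * α * yv x j + β * ev j := by
  unfold pd
  rw [HasFDerivAt.fderiv h, apply_single]

end Has2

lemma hess_eq {f A B : (Fin (m + 1) → ℝ) → ℝ} (hf : ∀ x, Has2 f x (A x) (B x))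
    {x : Fin (m + 1) → ℝ} {α₁ α₂ β₁ β₂ : ℝ} (hA : Has2 A x α₁ α₂) (hB : Has2 B x β₁ β₂) :
    hess f x = Mx (yv x) (2 * A x) (4 * α₁) (2 * α₂) (2 * β₁) β₂ := by
  ext i j
  have h1 : pd j f = fun x => 2 * A x * yv x j + B x * ev j := funext fun x => (hf x).pd_eq j
  simp only [hess, Matrix.of_apply, h1, Mx]
  have h2 := (((HasFDerivAt.const_mul hA 2).mul (has_yv x j)).add
    (HasFDerivAt.mul_const hB (ev j)))
  unfold pd
  have h3 : (fun x => 2 * A x * yv x j + B x * ev j) =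
      ((fun y => 2 * A y) * fun x => yv x j) + fun y => B y * ev j := rfl
  rw [h3, h2.fderiv]
  simp only [_root_.add_apply, _root_.smul_apply,
    _root_.sub_apply, pr_apply, smul_eq_mul]
  have e1 := Has2.apply_single x α₁ α₂ i
  have e2 := Has2.apply_single x β₁ β₂ i
  have e3 : (Pi.single i (1 : ℝ) : Fin (m + 1) → ℝ) 0 = ev i := by
    simp [Pi.single_apply, ev, eq_comm]
  have e4 : (Pi.single i (1 : ℝ) : Fin (m + 1) → ℝ) j = if i = j then 1 else 0 := by
    simp [Pi.single_apply, eq_comm]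
  rw [e1, e2, e3, e4]
  ring

lemma Mx_inv (y : Fin (m + 1) → ℝ) (hy : y 0 = 0) (ρ : ℝ) (hρ : ρ = ∑ k, y k * y k)
    (α β γ δ D : ℝ) (hα : α ≠ 0) (hD : D = (α + β * ρ) * δ - γ * γ * ρ) (hD0 : D ≠ 0) :
    (Mx y α β γ γ δ)⁻¹ = Mx y (1 / α) ((γ * γ - β * δ) / (α * D)) (-γ / D) (-γ / D)
      ((α + β * ρ) / D) := by
  apply Matrix.inv_eq_right_inv
  rw [Mx_mul y hy ρ hρ, ← Mx_one y]
  congr 1
  · field_simp
  · field_simp; rw [hD]; ring
  · field_simp; rw [hD]; ring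
  · field_simp; ring
  · field_simp; rw [hD]; ring

end Vale.Agent.P252
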