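import Mathlib

namespace Vale.Agent.P252

open Set Filter Topology
open scoped ContDiff NNReal

lemma global_ode {E : Type} [NormedAddCommGroup E] [NormedSpace ℝ E] [CompleteSpace E]
    (F : E → E) (K L : ℝ≥0) (hK : LipschitzWith K F) (hL : ∀ x, ‖F x‖ ≤ L) (z0 : E) :
    ∃ z : ℝ → E, z 0 = z0 ∧ ∀ s, HasDerivAt z (F (z s)) s := by
  have h1 : ∀ n : ℕ, ∃ α : ℝ → E, α 0 = z0 ∧
      ∀ t ∈ Ioo (-((n : ℝ) + 1)) (n + 1), HasDerivAt α (F (α t)) t := by
    intro n
    have hn : (0 : ℝ) ≤ n + 1 := by positivity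
    have hp : IsPicardLindelof (fun _ : ℝ => F) (tmin := -((n : ℝ) + 1)) (tmax := n + 1)
        ⟨0, by constructor <;> linarith⟩ z0 (L * (n + 1)) 0 L K :=
      ⟨fun _ _ => hK.lipschitzOnWith, fun _ _ => continuousOn_const, fun _ _ x _ => hL x,
        by simp⟩
    obtain ⟨α, h0, hα⟩ := hp.exists_eq_forall_mem_Icc_hasDerivWithinAt₀
    exact ⟨α, h0, fun t ht => (hα t (Ioo_subset_Icc_self ht)).hasDerivAt
      (Icc_mem_nhds ht.1 ht.2)⟩
  choose α h0 hα using h1
  have huniq : ∀ n k : ℕ, n ≤ k → EqOn (α n) (α k) (Ioo (-((n : ℝ) + 1)) (n + 1)) := by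
    intro n k hnk
    have hnk' : (n : ℝ) ≤ k := by exact_mod_cast hnk
    have hn : (0 : ℝ) < n + 1 := by positivity
    refine ODE_solution_unique_of_mem_Ioo (v := fun _ => F) (s := fun _ => univ) (K := K) (t₀ := 0)
      (fun _ _ => hK.lipschitzOnWith) ⟨by linarith, hn⟩ (fun t ht => ⟨hα n t ht, trivial⟩)
      (fun t ht => ⟨hα k t ⟨by linarith [ht.1], by linarith [ht.2]⟩, trivial⟩)
      ((h0 n).trans (h0 k).symm)
  have hmem : ∀ s : ℝ, s ∈ Ioo (-((⌈|s|⌉₊ : ℝ) + 1)) (⌈|s|⌉₊ + 1) := by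
    intro s
    have := Nat.le_ceil |s|
    have h2 := le_abs_self s
    have h3 := neg_abs_le s
    constructor <;> linarith
  refine ⟨fun s => α ⌈|s|⌉₊ s, by simpa using h0 _, fun s => ?_⟩
  have hE : (fun s => α ⌈|s|⌉₊ s) =ᶠ[𝓝 s] α (⌈|s|⌉₊ + 1) := by
    have : ∀ᶠ t in 𝓝 s, |t| < |s| + 1 :=
      (continuous_abs.continuousAt (x := s)).eventually (gt_mem_nhds (lt_add_one _))
    filter_upwards [this] with t ht
    refine huniq _ _ ?_ (hmem t)
    rw [Nat.ceil_le]
    have := Nat.le_ceil |s|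
    push_cast
    linarith
  have h2 := hα (⌈|s|⌉₊ + 1) s (by
    have := hmem s
    push_cast
    constructor <;> linarith [this.1, this.2])
  have h3 : α ⌈|s|⌉₊ s = α (⌈|s|⌉₊ + 1) s := hE.self_of_nhds
  simp only [h3]
  exact h2.congr_of_eventuallyEq hE

lemma barrier {f f' : ℝ → ℝ} (hf : ∀ s, HasDerivAt f (f' s) s) {c : ℝ} (h0 : f 0 ≤ c)
    (h : ∀ s, c < f s → f' s ≤ 0) {s : ℝ} (hs : 0 ≤ s) : f s ≤ c := by
  by_contra hlt
  push Not at hlt
  have hc : Continuous f := continuous_iff_continuousAt.2 fun s => (hf s).continuousAt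
  have hK : IsCompact (Icc 0 s ∩ {t | f t ≤ c}) :=
    isCompact_Icc.inter_right (isClosed_le hc continuous_const)
  obtain ⟨t, ⟨ht, htc⟩, hmax⟩ := hK.exists_isGreatest ⟨0, ⟨le_rfl, hs⟩, h0⟩
  have hts : t < s := lt_of_le_of_ne ht.2 (by rintro rfl; exact absurd htc (not_le.2 hlt))
  obtain ⟨ξ, hξ, hd⟩ := exists_hasDerivAt_eq_slope f f' hts hc.continuousOn fun x _ => hf x
  have h1 : c < f ξ := by
    by_contra h2
    push Not at h2
    exact absurd (hmax ⟨⟨ht.1.trans hξ.1.le, hξ.2.le⟩, h2⟩) (not_le.2 hξ.1)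
  have h2 := h ξ h1
  rw [hd] at h2
  have h3 : 0 < (f s - f t) / (s - t) := div_pos (by simp only [mem_setOf_eq] at htc; linarith)
    (by linarith)
  linarith

noncomputable def fld (M : ℝ) (z : ℝ × ℝ) : ℝ × ℝ :=
  (z.1 * (z.2 + 1 - z.1),
    z.2 * (z.1 * (1 + (M + 3) * (2 * z.2 - 1) / (M + 2 * z.1)) - M * (z.2 - 1)))

theorem trap (M : ℝ) (hM : 9 ≤ M) (p0 v0 : ℝ) (hp0 : 0 < p0) (hp1 : p0 ≤ 3 / 2)
    (hv0 : 1 / 2 ≤ v0) (hv1 : v0 ≤ 2) : ∃ z : ℝ → ℝ × ℝ, z 0 = (p0, v0) ∧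
      ∀ s, 0 ≤ s → p0 ≤ (z s).1 ∧ 1 / 2 ≤ (z s).2 ∧ HasDerivAt z (fld M (z s)) s := by
  let R : Set (ℝ × ℝ) := Icc p0 (M / 2) ×ˢ Icc (1 / 2) (M / 2 - 1)
  have hR : IsCompact R := isCompact_Icc.prod isCompact_Icc
  have hsm : ∀ z ∈ R, ContDiffAt ℝ 1 (fld M) z := by
    intro z hz
    have : M + 2 * z.1 ≠ 0 := by have := hz.1.1; linarith
    unfold fld
    fun_prop (disch := assumption)
  obtain ⟨K, hK⟩ := LocallyLipschitzOn.exists_lipschitzOnWith_of_compact (f := fld M) hR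
    (fun z hz => by
      obtain ⟨K, t, ht, h⟩ := (hsm z hz).exists_lipschitzOnWith
      exact ⟨K, t, mem_nhdsWithin_of_mem_nhds ht, h⟩)
  obtain ⟨L, hL⟩ := hR.exists_bound_of_continuousOn
    (fun z hz => (hsm z hz).continuousAt.continuousWithinAt)
  let cl : ℝ × ℝ → ℝ × ℝ := fun z => (max p0 (min z.1 (M / 2)), max (1 / 2) (min z.2 (M / 2 - 1)))
  have hcl : ∀ z, cl z ∈ R := fun z =>
    ⟨⟨le_max_left _ _, max_le (by linarith) (min_le_right _ _)⟩,
      ⟨le_max_left _ _, max_le (by linarith) (min_le_right _ _)⟩⟩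
  have hclL : LipschitzWith 1 cl := by
    have h1 := (LipschitzWith.prod_fst (α := ℝ) (β := ℝ)).min_const (M / 2) |>.const_max p0
    have h2 := (LipschitzWith.prod_snd (α := ℝ) (β := ℝ)).min_const (M / 2 - 1)
      |>.const_max (1 / 2)
    have h3 := h1.prodMk h2
    rw [max_self] at h3
    exact h3
  have hF : LipschitzWith (K * 1) (fld M ∘ cl) := by
    rw [← lipschitzOnWith_univ]
    exact hK.comp hclL.lipschitzOnWith fun z _ => hcl z
  obtain ⟨z, hz0, hz⟩ := global_ode (fld M ∘ cl) (K * 1) ⟨max L 0, le_max_right _ _⟩ hF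
    (fun x => (hL _ (hcl x)).trans (le_max_left _ _)) (p0, v0)
  have hz1 : ∀ s, HasDerivAt (fun s => (z s).1) (fld M (cl (z s))).1 s := fun s =>
    (hasFDerivAt_fst (𝕜 := ℝ) (p := z s)).comp_hasDerivAt s (hz s)
  have hz2 : ∀ s, HasDerivAt (fun s => (z s).2) (fld M (cl (z s))).2 s := fun s =>
    (hasFDerivAt_snd (𝕜 := ℝ) (p := z s)).comp_hasDerivAt s (hz s)
  refine ⟨z, hz0, fun s hs => ?_⟩
  have b1 : (z s).1 ≤ M / 2 := by
    refine barrier hz1 (by rw [hz0]; simp only; linarith) (fun s h => ?_) hs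
    have h1 : (cl (z s)).1 = M / 2 := by
      simp only [cl]; rw [min_eq_right h.le, max_eq_right (by linarith)]
    have h2 := (hcl (z s)).2.2
    simp only [fld, h1]
    exact mul_nonpos_of_nonneg_of_nonpos (by linarith) (by linarith)
  have b2 : -(z s).1 ≤ -p0 := by
    refine barrier (fun s => (hz1 s).neg) (by rw [Pi.neg_apply, hz0]) (fun s h => ?_) hs
    simp only [Pi.neg_apply, neg_lt_neg_iff] at h
    have h1 : (cl (z s)).1 = p0 := by
      simp only [cl]; rw [max_eq_left ((min_le_left _ _).trans h.le)]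
    have h2 := (hcl (z s)).2.1
    simp only [fld, h1, neg_nonpos]
    exact mul_nonneg hp0.le (by linarith)
  have b3 : (z s).2 ≤ M / 2 - 1 := by
    refine barrier hz2 (by rw [hz0]; simp only; linarith) (fun s h => ?_) hs
    have h1 : (cl (z s)).2 = M / 2 - 1 := by
      simp only [cl]; rw [min_eq_right h.le, max_eq_right (by linarith)]
    have h2 := (hcl (z s)).1
    simp only [fld, h1]
    generalize (cl (z s)).1 = p at h2
    refine mul_nonpos_of_nonneg_of_nonpos (by linarith) ?_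
    have hp : 0 < p := hp0.trans_le h2.1
    have hd : 0 < M + 2 * p := by linarith
    have h3 : p * ((M + 3) * (2 * (M / 2 - 1) - 1) / (M + 2 * p)) ≤ (M + 3) * (M - 3) / 4 := by
      rw [← mul_div_assoc, div_le_div_iff₀ hd (by norm_num)]
      have : 0 ≤ (M + 3) * (M - 3) * (M - 2 * p) :=
        mul_nonneg (mul_nonneg (by linarith) (by linarith)) (by linarith [h2.2])
      nlinarith
    have h4 : 0 ≤ (M - 1) * (M - 9) := mul_nonneg (by linarith) (by linarith)
    nlinarith [h2.2]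
  have b4 : -(z s).2 ≤ -(1 / 2) := by
    refine barrier (fun s => (hz2 s).neg) (by rw [Pi.neg_apply, hz0]; simp only; linarith)
      (fun s h => ?_) hs
    simp only [Pi.neg_apply, neg_lt_neg_iff] at h
    have h1 : (cl (z s)).2 = 1 / 2 := by
      simp only [cl]; rw [max_eq_left ((min_le_left _ _).trans h.le)]
    have h2 := (hcl (z s)).1.1
    simp only [fld, h1, neg_nonpos]
    refine mul_nonneg (by norm_num) ?_
    norm_num
    linarith
  have h5 : cl (z s) = z s := by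
    simp only [cl]
    rw [min_eq_left b1, min_eq_left b3, max_eq_right (by linarith), max_eq_right (by linarith)]
  refine ⟨by linarith, by linarith, ?_⟩
  have := hz s
  rwa [Function.comp_apply, h5] at this

lemma bootstrap {E : Type} [NormedAddCommGroup E] [NormedSpace ℝ E] {Y : ℝ → E} {Φ : ℝ × E → E}
    {J : Set ℝ} (hJ : IsOpen J) (hY : ∀ t ∈ J, HasDerivAt Y (Φ (t, Y t)) t)
    (hΦ : ∀ t ∈ J, ContDiffAt ℝ ∞ Φ (t, Y t)) : ContDiffOn ℝ ∞ Y J := by
  rw [contDiffOn_infty]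
  intro n
  induction n with
  | zero => exact contDiffOn_zero.2 fun t ht => (hY t ht).continuousAt.continuousWithinAt
  | succ n ih =>
    push_cast
    rw [contDiffOn_succ_iff_deriv_of_isOpen hJ]
    refine ⟨fun t ht => (hY t ht).differentiableAt.differentiableWithinAt, by simp, ?_⟩
    refine ContDiffOn.congr (f := fun t => Φ (t, Y t)) (fun t ht => ?_) fun t ht => (hY t ht).deriv
    exact ((hΦ t ht).of_le (by exact_mod_cast le_top)).comp_contDiffWithinAt t
      (f := fun t => (t, Y t)) (contDiffWithinAt_id.prodMk (ih t ht))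

lemma glue {f g : ℝ → ℝ} {c x d : ℝ} (hc : f c = g c) (hf : x ≤ c → HasDerivAt f d x)
    (hg : c ≤ x → HasDerivAt g d x) : HasDerivAt (fun x => if x ≤ c then f x else g x) d x := by
  rcases lt_trichotomy x c with h | h | h
  · refine (hf h.le).congr_of_eventuallyEq ?_
    filter_upwards [Iio_mem_nhds h] with y hy using if_pos (le_of_lt hy)
  · subst h
    have h1 : HasDerivWithinAt (fun y => if y ≤ x then f y else g y) d (Iic x) x :=
      (hf le_rfl).hasDerivWithinAt.congr (fun y hy => if_pos hy) (if_pos le_rfl)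
    have h2 : HasDerivWithinAt (fun y => if y ≤ x then f y else g y) d (Ici x) x := by
      refine (hg le_rfl).hasDerivWithinAt.congr (fun y hy => ?_) (by simp [hc])
      split_ifs with h
      · rw [le_antisymm h hy, hc]
      · rfl
    have := h1.union h2
    rwa [Iic_union_Ici, hasDerivWithinAt_univ] at this
  · refine (hg h.le).congr_of_eventuallyEq ?_
    filter_upwards [Ioi_mem_nhds h] with y hy using if_neg (not_le.2 hy)

end Vale.Agent.P252
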