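import Mathlib

namespace Vale.Agent.P252

open Set Filter Topology
open scoped ContDiff

lemma ift {X : Type} [NormedAddCommGroup X] [NormedSpace ℝ X] [CompleteSpace X]
    (N : ℝ × X → X) (hN : ContDiff ℝ ω N) (Y0 : X) :
    ∃ ε > (0 : ℝ), ∃ δ > (0 : ℝ), ∃ Y : ℝ → X,
      (∀ ρ, |ρ| < ε → AnalyticAt ℝ Y ρ ∧ Y ρ = Y0 + ρ • N (ρ, Y ρ) ∧ ‖Y ρ - Y0‖ < δ) ∧
      ∀ ρ Z, |ρ| < ε → ‖Z - Y0‖ < δ → Z = Y0 + ρ • N (ρ, Z) → Z = Y ρ := by
  let Φ : ℝ × X → ℝ × X := fun p => (p.1, p.2 - p.1 • N p)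
  have hΦ : ContDiffAt ℝ ω Φ (0, Y0) := by
    apply ContDiff.contDiffAt
    exact contDiff_fst.prodMk (contDiff_snd.sub (contDiff_fst.smul hN))
  let L : (ℝ × X) ≃L[ℝ] (ℝ × X) := (ContinuousLinearEquiv.refl ℝ ℝ).skewProd
    (ContinuousLinearEquiv.refl ℝ X) (-(ContinuousLinearMap.toSpanSingleton ℝ (N (0, Y0))))
  have hd : HasFDerivAt Φ (L : (ℝ × X) →L[ℝ] (ℝ × X)) (0, Y0) := by
    have h1 : HasFDerivAt N (fderiv ℝ N (0, Y0)) (0, Y0) :=
      (hN.differentiable (by simp) _).hasFDerivAt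
    have h2 := (hasFDerivAt_fst (𝕜 := ℝ) (p := ((0 : ℝ), Y0))).prodMk
      ((hasFDerivAt_snd (𝕜 := ℝ) (p := ((0 : ℝ), Y0))).sub
        ((hasFDerivAt_fst (𝕜 := ℝ) (p := ((0 : ℝ), Y0))).smul h1))
    refine HasFDerivAt.congr_fderiv h2 ?_
    ext1 <;> ext1 <;> simp [L, sub_eq_add_neg]
  have hne : (ω : WithTop ℕ∞) ≠ 0 := by simp
  let e := hΦ.toOpenPartialHomeomorph Φ hd hne
  have hsrc : ((0 : ℝ), Y0) ∈ e.source := hΦ.mem_toOpenPartialHomeomorph_source hd hne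
  have hΦ0 : Φ (0, Y0) = (0, Y0) := by simp [Φ]
  have htg : ((0 : ℝ), Y0) ∈ e.target := by
    have := hΦ.image_mem_toOpenPartialHomeomorph_target hd hne
    rwa [hΦ0] at this
  have han : AnalyticAt ℝ e.symm (0, Y0) := by
    have := hΦ.to_localInverse hd hne
    rw [hΦ0] at this
    exact this.analyticAt
  have hsymm0 : e.symm (0, Y0) = (0, Y0) := by
    have := e.left_inv hsrc
    change e.symm (Φ (0, Y0)) = _ at this
    rwa [hΦ0] at this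
  obtain ⟨δ, hδ, hball⟩ := Metric.isOpen_iff.1 e.open_source _ hsrc
  have hc : ContinuousAt (fun ρ : ℝ => (ρ, Y0)) 0 := by fun_prop
  have ev1 : ∀ᶠ ρ : ℝ in 𝓝 0, AnalyticAt ℝ e.symm (ρ, Y0) :=
    hc.eventually han.eventually_analyticAt
  have ev2 : ∀ᶠ ρ : ℝ in 𝓝 0, (ρ, Y0) ∈ e.target :=
    hc.eventually (e.open_target.mem_nhds htg)
  have ev3 : ∀ᶠ ρ : ℝ in 𝓝 0, e.symm (ρ, Y0) ∈ Metric.ball ((0 : ℝ), Y0) δ := by
    have : ContinuousAt (fun ρ : ℝ => e.symm (ρ, Y0)) 0 :=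
      ContinuousAt.comp (f := fun ρ : ℝ => (ρ, Y0)) han.continuousAt hc
    apply this.eventually
    simp only []
    rw [hsymm0]
    exact Metric.ball_mem_nhds _ hδ
  obtain ⟨ε, hε, hev⟩ := Metric.eventually_nhds_iff.1 (ev1.and (ev2.and ev3))
  refine ⟨min ε δ, lt_min hε hδ, δ, hδ, fun ρ => (e.symm (ρ, Y0)).2, ?_, ?_⟩
  · intro ρ hρ
    obtain ⟨h1, h2, h3⟩ := hev (y := ρ) (by simpa using hρ.trans_le (min_le_left _ _))
    have h4 : Φ (e.symm (ρ, Y0)) = (ρ, Y0) := e.right_inv h2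
    have h5 : (e.symm (ρ, Y0)).1 = ρ := congrArg Prod.fst h4
    have h6 : (e.symm (ρ, Y0)).2 - (e.symm (ρ, Y0)).1 • N (e.symm (ρ, Y0)) = Y0 :=
      congrArg Prod.snd h4
    refine ⟨?_, ?_, ?_⟩
    · have : AnalyticAt ℝ (fun ρ : ℝ => (ρ, Y0)) ρ := analyticAt_id.prod analyticAt_const
      exact analyticAt_snd.comp (AnalyticAt.comp (f := fun ρ : ℝ => (ρ, Y0)) h1 this)
    · have h7 : (ρ, (e.symm (ρ, Y0)).2) = e.symm (ρ, Y0) := Prod.ext h5.symm rfl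
      rw [h7]
      rw [h5] at h6
      exact (sub_eq_iff_eq_add.1 h6)
    · rw [Metric.mem_ball, Prod.dist_eq] at h3
      rw [← dist_eq_norm]
      exact (le_max_right _ _).trans_lt h3
  · intro ρ Z hρ hZ hZeq
    have h1 : (ρ, Z) ∈ e.source := by
      apply hball
      rw [Metric.mem_ball, Prod.dist_eq]
      refine max_lt ?_ (by rwa [dist_eq_norm])
      simpa using hρ.trans_le (min_le_right _ _)
    have h2 := e.left_inv h1
    change e.symm (Φ (ρ, Z)) = _ at h2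
    have h3 : Φ (ρ, Z) = (ρ, Y0) := by
      simp only [Φ]
      congr 1
      exact sub_eq_iff_eq_add.2 hZeq
    rw [h3] at h2
    simp only [h2]

abbrev XX : Type := C(unitInterval, ℝ)

noncomputable def ex (f : XX) (x : ℝ) : ℝ := f (projIcc 0 1 zero_le_one x)

lemma ex_cont (f : XX) : Continuous (ex f) := f.continuous.comp continuous_projIcc

lemma ex_of_mem (f : XX) {x : ℝ} (hx : x ∈ Icc (0 : ℝ) 1) : ex f x = f ⟨x, hx⟩ := by
  simp [ex, projIcc_of_mem _ hx]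

lemma T_cont (j : ℕ) (f : XX) :
    Continuous fun s : unitInterval => ∫ τ in (0 : ℝ)..1, τ ^ j * ex f (τ ^ 2 * s) := by
  apply intervalIntegral.continuous_parametric_intervalIntegral_of_continuous'
  have := ex_cont f
  unfold Function.uncurry
  fun_prop

noncomputable def Tl (j : ℕ) : XX →ₗ[ℝ] XX where
  toFun f := ⟨fun s => ∫ τ in (0 : ℝ)..1, τ ^ j * ex f (τ ^ 2 * s), T_cont j f⟩
  map_add' f g := by
    ext s
    have hf := ex_cont f
    have hg := ex_cont g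
    simp only [ContinuousMap.coe_mk, ContinuousMap.add_apply]
    rw [← intervalIntegral.integral_add]
    · congr 1; funext τ; simp [ex, mul_add]
    · apply Continuous.intervalIntegrable; fun_prop
    · apply Continuous.intervalIntegrable; fun_prop
  map_smul' c f := by
    ext s
    simp only [ContinuousMap.coe_mk, ContinuousMap.smul_apply, smul_eq_mul, RingHom.id_apply]
    rw [← intervalIntegral.integral_const_mul]
    congr 1; funext τ; simp [ex]; ring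

noncomputable def T (j : ℕ) : XX →L[ℝ] XX := (Tl j).mkContinuous 1 fun f => by
  rw [one_mul, ContinuousMap.norm_le _ (norm_nonneg _)]
  intro s
  have := intervalIntegral.norm_integral_le_of_norm_le_const (a := 0) (b := 1) (C := ‖f‖)
    (f := fun τ : ℝ => τ ^ j * ex f (τ ^ 2 * s)) (by
      intro τ hτ
      rw [Set.uIoc_of_le zero_le_one] at hτ
      rw [norm_mul, norm_pow, Real.norm_of_nonneg hτ.1.le]
      have h1 : τ ^ j ≤ 1 := pow_le_one₀ hτ.1.le hτ.2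
      have h2 : ‖ex f (τ ^ 2 * s)‖ ≤ ‖f‖ := f.norm_coe_le_norm _
      calc _ ≤ 1 * ‖f‖ := mul_le_mul h1 h2 (norm_nonneg _) zero_le_one
        _ = _ := one_mul _)
  simpa [Tl] using this

lemma T_apply (j : ℕ) (f : XX) (s : unitInterval) :
    T j f s = ∫ τ in (0 : ℝ)..1, τ ^ j * ex f (τ ^ 2 * s) := rfl

lemma T_one (j : ℕ) : T j 1 = (1 / ((j : ℝ) + 1)) • (1 : XX) := by
  ext s
  simp [T_apply, ex]

noncomputable def io : XX := ⟨fun s => s, continuous_subtype_val⟩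

noncomputable def Cs (θ : unitInterval) : XX →ₐ[ℝ] XX :=
  ContinuousMap.compRightAlgHom ℝ ℝ ⟨fun s => θ * s, by fun_prop⟩

lemma Cs_apply (θ : unitInterval) (f : XX) (s : unitInterval) : Cs θ f s = f (θ * s) := rfl

lemma Cs_io (θ : unitInterval) : Cs θ io = (θ : ℝ) • io := by
  ext s; simp [Cs_apply, io]

lemma sq_mul_mem {τ : ℝ} (hτ : τ ∈ uIcc (0 : ℝ) 1) (s : unitInterval) :
    τ ^ 2 * s ∈ Icc (0 : ℝ) 1 := by
  rw [uIcc_of_le zero_le_one] at hτ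
  have h1 : τ ^ 2 ≤ 1 := pow_le_one₀ hτ.1 hτ.2
  exact ⟨mul_nonneg (sq_nonneg _) s.2.1, mul_le_one₀ h1 s.2.1 s.2.2⟩

lemma Cs_T (θ : unitInterval) (j : ℕ) (f : XX) : Cs θ (T j f) = T j (Cs θ f) := by
  ext s
  rw [Cs_apply, T_apply, T_apply]
  refine intervalIntegral.integral_congr fun τ hτ => ?_
  rw [ex_of_mem _ (sq_mul_mem hτ s), ex_of_mem _ (sq_mul_mem hτ (θ * s)), Cs_apply]
  congr 2
  ext
  simp
  ring

lemma Cs_norm (θ : unitInterval) (f : XX) : ‖Cs θ f‖ ≤ ‖f‖ := by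
  rw [ContinuousMap.norm_le _ (norm_nonneg _)]
  intro s
  exact f.norm_coe_le_norm _

noncomputable def Psi (M : ℝ) (q A B K : XX) : XX :=
  A * (B - (2 * (M + 3) / M) • (A * K) + (M + 3) • (K * B * ((3 : ℝ) • 1 + (2 : ℝ) • (q * B))))
    - M • (B * B)

noncomputable def NN (m : ℕ) (p : ℝ × (XX × XX × XX)) : XX × XX × XX :=
  (io * T 1 (p.2.1 * (p.2.2.1 - p.2.1)),
   T (m + 1) (io * (((2 * (m : ℝ) + 3) / m) • T 1 (p.2.1 * (p.2.2.1 - p.2.1)) +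
     Psi m (p.1 • io) p.2.1 p.2.2.1 p.2.2.2)),
   (-(2 / (m : ℝ))) • (io * p.2.1 * p.2.2.2))

lemma NN_smooth (m : ℕ) : ContDiff ℝ ω (NN m) := by
  unfold NN Psi
  have h1 : ∀ j, ContDiff ℝ ω (T j) := fun j => (T j).contDiff
  fun_prop

noncomputable def YY (m : ℕ) : XX × XX × XX :=
  (1, ((2 * (m : ℝ) + 3) / m / (m + 2)) • 1, (1 / (m : ℝ)) • 1)

lemma subst_int (j : ℕ) (ψ : ℝ → ℝ) (r : ℝ) :
    r ^ (j + 1) * ∫ τ in (0 : ℝ)..1, τ ^ j * ψ (τ ^ 2 * r ^ 2) =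
      ∫ s in (0 : ℝ)..r, s ^ j * ψ (s ^ 2) := by
  have h := intervalIntegral.smul_integral_comp_mul_right (a := 0) (b := 1)
    (fun s : ℝ => s ^ j * ψ (s ^ 2)) r
  simp only [zero_mul, one_mul, smul_eq_mul] at h
  rw [← h, pow_succ, mul_comm (r ^ j), mul_assoc, ← intervalIntegral.integral_const_mul]
  congr 2
  funext τ
  rw [mul_pow, mul_pow]; ring

lemma deriv_int (j : ℕ) (ψ φ : ℝ → ℝ) (ε : ℝ) (hψ : ContinuousOn ψ (Ioo (-ε) ε))
    (hφ : ∀ ρ, 0 < ρ → ρ < ε → φ ρ = ∫ τ in (0 : ℝ)..1, τ ^ j * ψ (τ ^ 2 * ρ))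
    {ρ φ' : ℝ} (h0 : 0 < ρ) (h1 : ρ < ε) (hd : HasDerivAt φ φ' ρ) :
    2 * ρ * φ' + (j + 1) * φ ρ = ψ ρ := by
  obtain ⟨r, hr, rfl⟩ : ∃ r : ℝ, 0 < r ∧ ρ = r ^ 2 :=
    ⟨Real.sqrt ρ, Real.sqrt_pos.2 h0, (Real.sq_sqrt h0.le).symm⟩
  let S : Set ℝ := {s | s ^ 2 < ε}
  have hS : IsOpen S := isOpen_lt (by fun_prop) continuous_const
  have hc : ContinuousOn (fun s : ℝ => s ^ j * ψ (s ^ 2)) S := by
    refine ContinuousOn.mul (by fun_prop) (hψ.comp (by fun_prop) fun s hs => ⟨?_, hs⟩)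
    have := sq_nonneg s
    linarith
  have hsub : uIcc 0 r ⊆ S := by
    rw [uIcc_of_le hr.le]
    intro s hs
    exact (pow_le_pow_left₀ hs.1 hs.2 2).trans_lt h1
  have hI := intervalIntegral.integral_hasDerivAt_right (hc.mono hsub).intervalIntegrable
    (hc.stronglyMeasurableAtFilter hS r h1) (hc.continuousAt (hS.mem_nhds h1))
  have hJ : HasDerivAt (fun r : ℝ => r ^ (j + 1) * φ (r ^ 2))
      ((j + 1) * r ^ j * φ (r ^ 2) + r ^ (j + 1) * (φ' * (2 * r))) r := by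
    have h2 : HasDerivAt (fun r : ℝ => r ^ 2) (2 * r) r := by simpa using hasDerivAt_pow 2 r
    have h3 := (hasDerivAt_pow (j + 1) r).mul (HasDerivAt.comp (h := fun r : ℝ => r ^ 2) r hd h2)
    refine HasDerivAt.congr_deriv h3 ?_
    simp
  have hE : (fun r : ℝ => r ^ (j + 1) * φ (r ^ 2)) =ᶠ[𝓝 r]
      fun r => ∫ s in (0 : ℝ)..r, s ^ j * ψ (s ^ 2) := by
    filter_upwards [hS.mem_nhds h1, Ioi_mem_nhds hr] with s hs hs0
    rw [hφ _ (pow_pos hs0 2) hs, subst_int]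
  have := (hJ.congr_of_eventuallyEq hE.symm).unique hI
  have hp : r ^ j ≠ 0 := pow_ne_zero _ hr.ne'
  apply mul_left_cancel₀ hp
  rw [← this]; ring

end Vale.Agent.P252
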