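import Vale.Agent.P252.Loc

namespace Vale.Agent.P252

open Set Filter Topology
open scoped ContDiff

lemma scale_eq (m : ℕ) (θ : unitInterval) (ρ : ℝ) (Z : XX × XX × XX)
    (h : Z = YY m + ρ • NN m (ρ, Z)) :
    ((Cs θ Z.1, Cs θ Z.2.1, Cs θ Z.2.2) : XX × XX × XX) =
      YY m + ((θ : ℝ) * ρ) • NN m ((θ : ℝ) * ρ, (Cs θ Z.1, Cs θ Z.2.1, Cs θ Z.2.2)) := by
  obtain ⟨A, B, K⟩ := Z
  simp only [YY, NN, Prod.mk_add_mk, Prod.smul_mk, Prod.mk.injEq] at h ⊢
  obtain ⟨h1, h2, h3⟩ := h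
  refine ⟨?_, ?_, ?_⟩
  · conv_lhs => rw [h1]
    simp only [map_add, map_smul, map_mul, map_one, map_sub, Cs_T, Cs_io, smul_mul_assoc,
      smul_smul, mul_comm ρ]
  · conv_lhs => rw [h2]
    simp only [Psi, map_add, map_smul, map_mul, map_one, map_sub, Cs_T, Cs_io, smul_mul_assoc,
      smul_smul, mul_comm ρ, mul_assoc (2 : ℝ)]
  · conv_lhs => rw [h3]
    simp only [map_add, map_smul, map_mul, map_one, Cs_io, smul_mul_assoc,
      smul_smul]
    congr 2
    ring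

lemma scale_norm (m : ℕ) (θ : unitInterval) (Z : XX × XX × XX) :
    ‖((Cs θ Z.1, Cs θ Z.2.1, Cs θ Z.2.2) : XX × XX × XX) - YY m‖ ≤ ‖Z - YY m‖ := by
  have : ((Cs θ Z.1, Cs θ Z.2.1, Cs θ Z.2.2) : XX × XX × XX) - YY m =
      (Cs θ (Z - YY m).1, Cs θ (Z - YY m).2.1, Cs θ (Z - YY m).2.2) := by
    simp [YY]
  rw [this]
  generalize Z - YY m = W
  obtain ⟨A, B, K⟩ := W
  simp only [Prod.norm_mk]
  exact max_le_max (Cs_norm _ _) (max_le_max (Cs_norm _ _) (Cs_norm _ _))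

theorem local_sol (m : ℕ) (hm : 0 < m) : ∃ ε > (0 : ℝ), ∃ a b : ℝ → ℝ,
    (∀ ρ, |ρ| < ε → AnalyticAt ℝ a ρ ∧ AnalyticAt ℝ b ρ) ∧ a 0 = 1 ∧
    ∀ ρ, 0 ≤ ρ → ρ < ε → HasDerivAt a (a ρ * (b ρ - a ρ) / 2) ρ ∧
      HasDerivAt (fun ρ => 1 + ρ * b ρ) ((1 + ρ * b ρ) * (a ρ * (1 + ((m : ℝ) + 3) *
        (2 * (1 + ρ * b ρ) - 1) / ((m : ℝ) + 2 * ρ * a ρ)) - m * b ρ) / 2) ρ := by
  obtain ⟨ε, hε, δ, hδ, Y, hY, huniq⟩ := ift (NN m) (NN_smooth m) (YY m)
  have hM : (m : ℝ) ≠ 0 := by positivity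
  let a : ℝ → ℝ := fun ρ => (Y ρ).1 1
  let b : ℝ → ℝ := fun ρ => (Y ρ).2.1 1
  let k : ℝ → ℝ := fun ρ => (Y ρ).2.2 1
  have hev : ∀ Z : XX, AnalyticAt ℝ (fun f : XX => f 1) Z := fun Z =>
    (ContinuousMap.evalCLM ℝ (1 : unitInterval) : XX →L[ℝ] ℝ).analyticAt Z
  have han : ∀ ρ, |ρ| < ε → AnalyticAt ℝ a ρ ∧ AnalyticAt ℝ b ρ ∧ AnalyticAt ℝ k ρ := by
    intro ρ hρ
    have h := (hY ρ hρ).1
    exact ⟨(hev _).comp (analyticAt_fst.comp h),
      (hev _).comp (analyticAt_fst.comp (analyticAt_snd.comp h)),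
      (hev _).comp (analyticAt_snd.comp (analyticAt_snd.comp h))⟩
  have hscale : ∀ ρ, |ρ| < ε → ∀ θ : unitInterval,
      (Y ρ).1 θ = a (θ * ρ) ∧ (Y ρ).2.1 θ = b (θ * ρ) ∧ (Y ρ).2.2 θ = k (θ * ρ) := by
    intro ρ hρ θ
    have h1 : |(θ : ℝ) * ρ| < ε := by
      rw [abs_mul, abs_of_nonneg θ.2.1]
      exact (mul_le_of_le_one_left (abs_nonneg _) θ.2.2).trans_lt hρ
    have h2 := huniq _ _ h1 ((scale_norm m θ _).trans_lt (hY ρ hρ).2.2)
      (scale_eq m θ ρ _ (hY ρ hρ).2.1)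
    simp only [a, b, k, ← h2, Cs_apply, mul_one, and_self]
  -- pointwise equations
  have heq : ∀ ρ, |ρ| < ε →
      a ρ = 1 + ρ * ∫ τ in (0 : ℝ)..1, τ ^ 1 * (fun s => a s * (b s - a s)) (τ ^ 2 * ρ) ∧
      k ρ * (m + 2 * ρ * a ρ) = 1 ∧
      b ρ = ∫ τ in (0 : ℝ)..1, τ ^ (m + 1) * (fun s => (2 * (m : ℝ) + 3) / m * a s + s *
        (a s * (b s - (2 * (m + 3) / m) * (a s * k s) + (m + 3) * (k s * b s * (3 + 2 * (s * b s))))
          - m * (b s * b s))) (τ ^ 2 * ρ) := by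
    intro ρ hρ
    have h := (hY ρ hρ).2.1
    have hs := hscale ρ hρ
    have ha : a ρ = (Y ρ).1 1 := rfl
    have hb : b ρ = (Y ρ).2.1 1 := rfl
    have hk : k ρ = (Y ρ).2.2 1 := rfl
    generalize Y ρ = Z at h hs ha hb hk
    obtain ⟨A, B, K⟩ := Z
    simp only [YY, NN, Prod.mk_add_mk, Prod.smul_mk, Prod.mk.injEq] at h hs ha hb hk
    obtain ⟨h1, h2, h3⟩ := h
    refine ⟨?_, ?_, ?_⟩
    · have := congrArg (fun f : XX => f 1) h1
      simp only [ContinuousMap.add_apply, ContinuousMap.one_apply, ContinuousMap.smul_apply,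
        ContinuousMap.mul_apply, smul_eq_mul, io, ContinuousMap.coe_mk, T_apply,
        Set.Icc.coe_one, one_mul] at this
      rw [ha, this]
      congr 2
      refine intervalIntegral.integral_congr fun τ hτ => ?_
      have hm := sq_mul_mem hτ 1
      simp only [Set.Icc.coe_one] at hm
      rw [ex_of_mem _ hm]
      simp only [ContinuousMap.mul_apply, ContinuousMap.sub_apply, (hs _).1, (hs _).2.1, mul_one]
    · have := congrArg (fun f : XX => f 1) h3
      simp only [ContinuousMap.add_apply, ContinuousMap.one_apply, ContinuousMap.smul_apply,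
        ContinuousMap.mul_apply, smul_eq_mul, io, ContinuousMap.coe_mk,
        Set.Icc.coe_one, one_mul] at this
      rw [ha, hk]
      have h4 : (m : ℝ) * K 1 = 1 - 2 * ρ * A 1 * K 1 := by
        conv_lhs => rw [this]
        field_simp
        ring
      linear_combination h4
    · have h5 : B = T (m + 1) (((2 * (m : ℝ) + 3) / m) • A +
          (ρ • io) * Psi m (ρ • io) A B K) := by
        have h6 : ((2 * (m : ℝ) + 3) / m) • A + (ρ • io) * Psi m (ρ • io) A B K =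
            ((2 * (m : ℝ) + 3) / m) • 1 + ρ • (io * (((2 * (m : ℝ) + 3) / m) •
              T 1 (A * (B - A)) + Psi m (ρ • io) A B K)) := by
          conv_lhs => rw [h1]
          simp only [mul_add, smul_add, smul_mul_assoc, mul_smul_comm, smul_smul]
          rw [← h1, mul_comm ρ, add_assoc]
        rw [h6, map_add, map_smul, map_smul, T_one, smul_smul]
        conv_lhs => rw [h2]
        congr 2
        push_cast
        field_simp
        ring
      have := congrArg (fun f : XX => f 1) h5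
      simp only [T_apply, Set.Icc.coe_one] at this
      rw [hb, this]
      refine intervalIntegral.integral_congr fun τ hτ => ?_
      have hm := sq_mul_mem hτ 1
      simp only [Set.Icc.coe_one] at hm
      rw [ex_of_mem _ hm]
      simp only [Psi, io, ContinuousMap.mul_apply, ContinuousMap.sub_apply,
        ContinuousMap.add_apply, ContinuousMap.smul_apply, ContinuousMap.one_apply,
        ContinuousMap.coe_mk, smul_eq_mul, (hs _).1, (hs _).2.1, (hs _).2.2, mul_one]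
      ring
  have habs : ∀ ρ, ρ ∈ Ioo (-ε) ε → |ρ| < ε := fun ρ h => abs_lt.2 h
  have hca : ContinuousOn a (Ioo (-ε) ε) := fun ρ h =>
    (han ρ (habs ρ h)).1.continuousAt.continuousWithinAt
  have hcb : ContinuousOn b (Ioo (-ε) ε) := fun ρ h =>
    (han ρ (habs ρ h)).2.1.continuousAt.continuousWithinAt
  have hck : ContinuousOn k (Ioo (-ε) ε) := fun ρ h =>
    (han ρ (habs ρ h)).2.2.continuousAt.continuousWithinAt
  have ha0 : a 0 = 1 := by simpa using (heq 0 (by simpa using hε)).1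
  have habs' : ∀ ρ, 0 ≤ ρ → ρ < ε → |ρ| < ε := fun ρ h0 h1 => by rwa [abs_of_nonneg h0]
  -- derivative of `a` for positive `ρ`
  have hda : ∀ ρ, 0 < ρ → ρ < ε → deriv a ρ = a ρ * (b ρ - a ρ) / 2 := by
    intro ρ h0 h1
    have hd := (han ρ (habs' ρ h0.le h1)).1.differentiableAt.hasDerivAt
    have hφ : HasDerivAt (fun ρ => (a ρ - 1) / ρ) ((deriv a ρ * ρ - (a ρ - 1) * 1) / ρ ^ 2) ρ :=
      (hd.sub_const 1).div (hasDerivAt_id ρ) h0.ne'
    have := deriv_int 1 (fun s => a s * (b s - a s)) (fun ρ => (a ρ - 1) / ρ) ε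
      (hca.mul (hcb.sub hca)) (fun ρ h0 h1 => by
        rw [div_eq_iff h0.ne']
        linear_combination (heq ρ (habs' ρ h0.le h1)).1) h0 h1 hφ
    rw [← this]
    field_simp
    ring
  have hdb : ∀ ρ, 0 < ρ → ρ < ε → 2 * ρ * deriv b ρ + (m + 2) * b ρ =
      (2 * (m : ℝ) + 3) / m * a ρ + ρ *
        (a ρ * (b ρ - (2 * (m + 3) / m) * (a ρ * k ρ) + (m + 3) * (k ρ * b ρ * (3 + 2 * (ρ * b ρ))))
          - m * (b ρ * b ρ)) := by
    intro ρ h0 h1
    have hd := (han ρ (habs' ρ h0.le h1)).2.1.differentiableAt.hasDerivAt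
    have := deriv_int (m + 1) (fun s => (2 * (m : ℝ) + 3) / m * a s + s *
        (a s * (b s - (2 * (m + 3) / m) * (a s * k s) + (m + 3) * (k s * b s * (3 + 2 * (s * b s))))
          - m * (b s * b s))) b ε (by fun_prop)
      (fun ρ h0 h1 => (heq ρ (habs' ρ h0.le h1)).2.2) h0 h1 hd
    rw [← this]
    push_cast
    ring
  have hlim : ∀ f g : ℝ → ℝ, ContinuousAt f 0 → ContinuousAt g 0 →
      (∀ ρ, 0 < ρ → ρ < ε → f ρ = g ρ) → f 0 = g 0 := by
    intro f g hf hg h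
    refine tendsto_nhds_unique_of_eventuallyEq (l := 𝓝[>] (0 : ℝ))
      (hf.tendsto.mono_left nhdsWithin_le_nhds) (hg.tendsto.mono_left nhdsWithin_le_nhds) ?_
    filter_upwards [Ioo_mem_nhdsGT hε] with ρ hρ using h ρ hρ.1 hρ.2
  have h00 := han 0 (by simpa using hε)
  have ca := h00.1.continuousAt
  have cb := h00.2.1.continuousAt
  have ck := h00.2.2.continuousAt
  have cda := h00.1.deriv.continuousAt
  have cdb := h00.2.1.deriv.continuousAt
  refine ⟨ε, hε, a, b, fun ρ h => ⟨(han ρ h).1, (han ρ h).2.1⟩, ha0, fun ρ h0 h1 => ⟨?_, ?_⟩⟩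
  · have hd := (han ρ (habs' ρ h0 h1)).1.differentiableAt.hasDerivAt
    refine hd.congr_deriv ?_
    rcases h0.lt_or_eq with h | h
    · exact hda ρ h h1
    · subst h
      exact hlim (deriv a) (fun ρ => a ρ * (b ρ - a ρ) / 2) cda (by fun_prop) hda
  · have hd := (han ρ (habs' ρ h0 h1)).2.1.differentiableAt.hasDerivAt
    have hE : 2 * ρ * deriv b ρ + (m + 2) * b ρ =
      (2 * (m : ℝ) + 3) / m * a ρ + ρ *
        (a ρ * (b ρ - (2 * (m + 3) / m) * (a ρ * k ρ) + (m + 3) * (k ρ * b ρ * (3 + 2 * (ρ * b ρ))))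
          - m * (b ρ * b ρ)) := by
      rcases h0.lt_or_eq with h | h
      · exact hdb ρ h h1
      · subst h
        exact hlim (fun ρ => 2 * ρ * deriv b ρ + (m + 2) * b ρ) (fun ρ =>
          (2 * (m : ℝ) + 3) / m * a ρ + ρ *
          (a ρ * (b ρ - (2 * (m + 3) / m) * (a ρ * k ρ) + (m + 3) *
            (k ρ * b ρ * (3 + 2 * (ρ * b ρ)))) - m * (b ρ * b ρ))) (by fun_prop) (by fun_prop) hdb
    have hk := (heq ρ (habs' ρ h0 h1)).2.1
    refine (((hasDerivAt_id ρ).mul hd).const_add 1).congr_deriv ?_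
    have hk' : ((m : ℝ) + 2 * ρ * a ρ)⁻¹ = k ρ := (eq_inv_of_mul_eq_one_left hk).symm
    rw [div_eq_mul_inv _ ((m : ℝ) + 2 * ρ * a ρ), hk']
    simp only [id]
    have h7 : (2 * (m : ℝ) + 3) / m * a ρ - ρ * (a ρ * ((2 * (m + 3) / m) * (a ρ * k ρ))) =
        a ρ + (m + 3) * a ρ * k ρ := by
      field_simp
      linear_combination (-(m + 3) * a ρ) * hk
    linear_combination (1 / 2) * hE + (1 / 2) * h7

end Vale.Agent.P252
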