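import Vale.Agent.P252.Pde
import Vale.Agent.P252.Loc2
import Vale.Agent.P252.Glob

namespace Vale.Agent.P252

open Set Filter Topology
open scoped ContDiff

theorem exists_prof (m : ℕ) (hm : 9 ≤ m) : ∃ F a b v : ℝ → ℝ, Prof m F a b v := by
  obtain ⟨ε, hε, a, b, han, ha0, hode⟩ := local_sol m (by omega)
  have hM : (9 : ℝ) ≤ m := by exact_mod_cast hm
  have h00 := han 0 (by simpa using hε)
  have ca := h00.1.continuousAt
  have cb := h00.2.continuousAt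
  have e1 : ∀ᶠ ρ in 𝓝 (0 : ℝ), 0 < a ρ := ca.eventually (lt_mem_nhds (by rw [ha0]; norm_num))
  have e2 : ∀ᶠ ρ in 𝓝 (0 : ℝ), 1 / 2 < 1 + ρ * b ρ :=
    (show ContinuousAt (fun ρ => 1 + ρ * b ρ) 0 by fun_prop).eventually
      (lt_mem_nhds (by norm_num))
  have e3 : ∀ᶠ ρ in 𝓝 (0 : ℝ), 1 + ρ * b ρ < 2 :=
    (show ContinuousAt (fun ρ => 1 + ρ * b ρ) 0 by fun_prop).eventually
      (gt_mem_nhds (by norm_num))
  have e4 : ∀ᶠ ρ in 𝓝 (0 : ℝ), ρ * a ρ < 3 / 2 :=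
    (show ContinuousAt (fun ρ => ρ * a ρ) 0 by fun_prop).eventually
      (gt_mem_nhds (by norm_num))
  obtain ⟨η, hη, hev⟩ := Metric.eventually_nhds_iff.1 (e1.and (e2.and (e3.and e4)))
  obtain ⟨c, hc0, hcε, hcη⟩ : ∃ c : ℝ, 0 < c ∧ c < ε ∧ c < η :=
    ⟨min ε η / 2, by positivity, by linarith [min_le_left ε η, lt_min hε hη],
      by linarith [min_le_right ε η, lt_min hε hη]⟩
  have hsm : ∀ ρ, 0 ≤ ρ → ρ ≤ c → 0 < a ρ ∧ 1 / 2 < 1 + ρ * b ρ ∧ 1 + ρ * b ρ < 2 ∧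
      ρ * a ρ < 3 / 2 := fun ρ h0 h1 =>
    hev (by rw [dist_zero_right, Real.norm_of_nonneg h0]; linarith)
  obtain ⟨hc1, hc2, hc3, hc4⟩ := hsm c hc0.le le_rfl
  obtain ⟨z, hz0, hz⟩ := trap m hM (c * a c) (1 + c * b c) (mul_pos hc0 hc1) hc4.le hc2.le hc3.le
  let σ : ℝ → ℝ := fun ρ => Real.log (ρ / c) / 2
  have hσc : σ c = 0 := by simp [σ, hc0.ne']
  have hσ0 : ∀ ρ, c ≤ ρ → 0 ≤ σ ρ := fun ρ h =>
    div_nonneg (Real.log_nonneg ((one_le_div hc0).2 h)) (by norm_num)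
  have hσd : ∀ ρ, c ≤ ρ → HasDerivAt σ (1 / (2 * ρ)) ρ := by
    intro ρ h
    have hρ : 0 < ρ := hc0.trans_le h
    have := (((hasDerivAt_id ρ).div_const c).log (div_pos hρ hc0).ne').div_const 2
    refine this.congr_deriv ?_
    simp only [id]; field_simp
  have hzd : ∀ ρ, c ≤ ρ →
      HasDerivAt (fun ρ => (z (σ ρ)).1) (1 / (2 * ρ) * (fld m (z (σ ρ))).1) ρ ∧
      HasDerivAt (fun ρ => (z (σ ρ)).2) (1 / (2 * ρ) * (fld m (z (σ ρ))).2) ρ := by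
    intro ρ h
    have h1 := (hz _ (hσ0 ρ h)).2.2.scomp ρ (hσd ρ h)
    have h2 := (hasFDerivAt_fst (𝕜 := ℝ) (p := (z ∘ σ) ρ)).comp_hasDerivAt ρ h1
    have h3 := (hasFDerivAt_snd (𝕜 := ℝ) (p := (z ∘ σ) ρ)).comp_hasDerivAt ρ h1
    exact ⟨h2, h3⟩
  let A : ℝ → ℝ := fun ρ => if ρ ≤ c then a ρ else (z (σ ρ)).1 / ρ
  let V : ℝ → ℝ := fun ρ => if ρ ≤ c then 1 + ρ * b ρ else (z (σ ρ)).2
  let B : ℝ → ℝ := fun ρ => if ρ ≤ c then b ρ else ((z (σ ρ)).2 - 1) / ρ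
  have gA : a c = (z (σ c)).1 / c := by rw [hσc, hz0]; field_simp
  have gV : 1 + c * b c = (z (σ c)).2 := by rw [hσc, hz0]
  have hA1 : ∀ ρ, ρ ≤ c → A ρ = a ρ := fun ρ h => if_pos h
  have hV1 : ∀ ρ, ρ ≤ c → V ρ = 1 + ρ * b ρ := fun ρ h => if_pos h
  have hB1 : ∀ ρ, ρ ≤ c → B ρ = b ρ := fun ρ h => if_pos h
  have hA2 : ∀ ρ, c ≤ ρ → A ρ = (z (σ ρ)).1 / ρ := by
    intro ρ h
    rcases h.lt_or_eq with h | h
    · exact if_neg (not_le.2 h)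
    · rw [← h, hA1 c le_rfl, gA]
  have hV2 : ∀ ρ, c ≤ ρ → V ρ = (z (σ ρ)).2 := by
    intro ρ h
    rcases h.lt_or_eq with h | h
    · exact if_neg (not_le.2 h)
    · rw [← h, hV1 c le_rfl, gV]
  have hB2 : ∀ ρ, c ≤ ρ → B ρ = ((z (σ ρ)).2 - 1) / ρ := by
    intro ρ h
    rcases h.lt_or_eq with h | h
    · exact if_neg (not_le.2 h)
    · rw [← h, hB1 c le_rfl, ← gV]; field_simp; ring
  have hVB : ∀ ρ, 0 ≤ ρ → V ρ = 1 + ρ * B ρ := by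
    intro ρ h0
    rcases le_total ρ c with h | h
    · rw [hV1 ρ h, hB1 ρ h]
    · have : ρ ≠ 0 := (hc0.trans_le h).ne'
      rw [hV2 ρ h, hB2 ρ h]; field_simp; ring
  have Apos : ∀ ρ, 0 ≤ ρ → 0 < A ρ := by
    intro ρ h0
    rcases le_total ρ c with h | h
    · rw [hA1 ρ h]; exact (hsm ρ h0 h).1
    · rw [hA2 ρ h]
      exact div_pos ((mul_pos hc0 hc1).trans_le (hz _ (hσ0 ρ h)).1) (hc0.trans_le h)
  have Vpos : ∀ ρ, 0 ≤ ρ → 0 < V ρ := by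
    intro ρ h0
    rcases le_total ρ c with h | h
    · rw [hV1 ρ h]; linarith [(hsm ρ h0 h).2.1]
    · rw [hV2 ρ h]; linarith [(hz _ (hσ0 ρ h)).2.1]
  have dA : ∀ ρ, 0 ≤ ρ → HasDerivAt A (A ρ * (B ρ - A ρ) / 2) ρ := by
    intro ρ h0
    refine glue gA (fun h => ?_) (fun h => ?_)
    · rw [hA1 ρ h, hB1 ρ h]; exact (hode ρ h0 (h.trans_lt hcε)).1
    · have hρ : ρ ≠ 0 := (hc0.trans_le h).ne'
      refine ((hzd ρ h).1.div (hasDerivAt_id ρ) hρ).congr_deriv ?_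
      rw [hA2 ρ h, hB2 ρ h]
      simp only [fld, id]
      field_simp
      ring
  have dV : ∀ ρ, 0 ≤ ρ → HasDerivAt V (V ρ * (A ρ * (1 + ((m : ℝ) + 3) * (2 * V ρ - 1) /
      ((m : ℝ) + 2 * ρ * A ρ)) - m * B ρ) / 2) ρ := by
    intro ρ h0
    refine glue gV (fun h => ?_) (fun h => ?_)
    · rw [hA1 ρ h, hB1 ρ h, hV1 ρ h]; exact (hode ρ h0 (h.trans_lt hcε)).2
    · have hρ : ρ ≠ 0 := (hc0.trans_le h).ne'
      refine (hzd ρ h).2.congr_deriv ?_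
      rw [hA2 ρ h, hB2 ρ h, hV2 ρ h]
      simp only [fld]
      have : 2 * ρ * ((z (σ ρ)).1 / ρ) = 2 * (z (σ ρ)).1 := by field_simp
      rw [this]
      generalize ((m : ℝ) + 3) * (2 * (z (σ ρ)).2 - 1) / (m + 2 * (z (σ ρ)).1) = w
      field_simp
  have sA1 : ContDiffOn ℝ ∞ (fun ρ => (A ρ, V ρ)) (Ioi 0) := by
    refine bootstrap (Φ := fun q : ℝ × (ℝ × ℝ) => (q.2.1 * ((q.2.2 - 1) / q.1 - q.2.1) / 2,
      q.2.2 * (q.2.1 * (1 + ((m : ℝ) + 3) * (2 * q.2.2 - 1) / ((m : ℝ) + 2 * q.1 * q.2.1))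
        - m * ((q.2.2 - 1) / q.1)) / 2)) isOpen_Ioi (fun t ht => ?_) (fun t ht => ?_)
    · have ht0 : t ≠ 0 := ne_of_gt ht
      have hB : B t = (V t - 1) / t := by rw [hVB t (le_of_lt ht)]; field_simp; ring
      have := (dA t (le_of_lt ht)).prodMk (dV t (le_of_lt ht))
      rwa [hB] at this
    · have ht0 : t ≠ 0 := ne_of_gt ht
      have h1 : (m : ℝ) + 2 * t * A t ≠ 0 := by
        have := Apos t (le_of_lt ht)
        have : 0 < t := ht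
        positivity
      fun_prop (disch := assumption)
  have sA : ∀ ρ ∈ Ioi (-ε), ContDiffAt ℝ ∞ A ρ := by
    intro ρ hρ
    rcases lt_or_ge ρ c with h | h
    · have h1 : |ρ| < ε := abs_lt.2 ⟨hρ, h.trans hcε⟩
      refine (han ρ h1).1.contDiffAt.congr_of_eventuallyEq ?_
      filter_upwards [Iio_mem_nhds h] with y hy using hA1 y (le_of_lt hy)
    · exact (sA1.contDiffAt (Ioi_mem_nhds (hc0.trans_le h))).fst
  have cA : ContinuousOn A (Ioi (-ε)) := fun ρ h => (sA ρ h).continuousAt.continuousWithinAt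
  let F : ℝ → ℝ := fun ρ => Real.exp (∫ s in (0 : ℝ)..ρ, A s)
  have dF : ∀ ρ ∈ Ioi (-ε), HasDerivAt F (A ρ * F ρ) ρ := by
    intro ρ hρ
    have hsub : uIcc 0 ρ ⊆ Ioi (-ε) := fun s hs =>
      lt_of_lt_of_le (lt_min (by linarith) hρ) hs.1
    have := (intervalIntegral.integral_hasDerivAt_right (cA.mono hsub).intervalIntegrable
      (cA.stronglyMeasurableAtFilter isOpen_Ioi ρ hρ) (sA ρ hρ).continuousAt).exp
    exact this.congr_deriv (mul_comm _ _)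
  have sF : ContDiffOn ℝ ∞ F (Ioi (-ε)) := by
    refine bootstrap (Φ := fun q : ℝ × ℝ => A q.1 * q.2) isOpen_Ioi dF (fun t ht => ?_)
    exact ((sA t ht).comp (t, F t) contDiffAt_fst).mul contDiffAt_snd
  have hJ : ∀ ρ : ℝ, 0 ≤ ρ → ρ ∈ Ioi (-ε) := fun ρ h => by
    simp only [mem_Ioi]; linarith
  exact ⟨F, A, B, V, hVB, fun ρ h => dF ρ (hJ ρ h), dA, dV, fun ρ _ => Real.exp_pos _, Apos, Vpos,
    fun ρ h => sF.contDiffAt (isOpen_Ioi.mem_nhds (hJ ρ h)), by simp [F]⟩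

theorem exists_counterexample (n : ℕ) (hn : 10 ≤ n) :
    ∃ u : (Fin n → ℝ) → ℝ, ContDiff ℝ ((⊤ : ℕ∞) : WithTop ℕ∞) u ∧ (∀ x, (hess u x).PosDef) ∧
      AffineMaximal u ∧ ¬ IsQuadratic u := by
  obtain ⟨m, rfl⟩ : ∃ m, n = m + 1 := ⟨n - 1, by omega⟩
  obtain ⟨F, a, b, v, P⟩ := exists_prof m (by omega)
  exact ⟨uf F, P.contDiff_u, P.posDef_u, P.affineMaximal (by omega), P.not_quadratic⟩

end Vale.Agent.P252
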