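import Vale.Agent.P252.Calc

namespace Vale.Agent.P252

open Matrix Finset

/-- the radial profile data -/
structure Prof (m : ℕ) (F a b v : ℝ → ℝ) : Prop where
  hv : ∀ ρ, 0 ≤ ρ → v ρ = 1 + ρ * b ρ
  dF : ∀ ρ, 0 ≤ ρ → HasDerivAt F (a ρ * F ρ) ρ
  da : ∀ ρ, 0 ≤ ρ → HasDerivAt a (a ρ * (b ρ - a ρ) / 2) ρ
  dv : ∀ ρ, 0 ≤ ρ → HasDerivAt v (v ρ * (a ρ * (1 + ((m : ℝ) + 3) * (2 * v ρ - 1) /
    ((m : ℝ) + 2 * ρ * a ρ)) - m * b ρ) / 2) ρ
  Fpos : ∀ ρ, 0 ≤ ρ → 0 < F ρ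
  apos : ∀ ρ, 0 ≤ ρ → 0 < a ρ
  vpos : ∀ ρ, 0 ≤ ρ → 0 < v ρ
  smooth : ∀ ρ, 0 ≤ ρ → ContDiffAt ℝ ((⊤ : ℕ∞) : WithTop ℕ∞) F ρ
  F0 : F 0 = 1

variable {m : ℕ} {F a b v : ℝ → ℝ}

noncomputable def uf (F : ℝ → ℝ) (x : Fin (m + 1) → ℝ) : ℝ := Real.sqrt (F (rho x) + x 0 * x 0)

noncomputable def Af (F a : ℝ → ℝ) (x : Fin (m + 1) → ℝ) : ℝ :=
  (1 / 2) * (a (rho x) * F (rho x)) * (uf F x)⁻¹

noncomputable def Bf (F : ℝ → ℝ) (x : Fin (m + 1) → ℝ) : ℝ := x 0 * (uf F x)⁻¹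

namespace Prof

variable (P : Prof m F a b v)
include P

lemma in_pos (x : Fin (m + 1) → ℝ) : 0 < F (rho x) + x 0 * x 0 := by
  have := P.Fpos _ (rho_nonneg x)
  have := mul_self_nonneg (x 0)
  linarith

lemma u_pos (x : Fin (m + 1) → ℝ) : 0 < uf F x := Real.sqrt_pos.2 (P.in_pos x)

lemma F_eq (x : Fin (m + 1) → ℝ) : F (rho x) = uf F x ^ 2 - x 0 ^ 2 := by
  rw [uf, Real.sq_sqrt (P.in_pos x).le]; ring

lemma contDiff_u : ContDiff ℝ ((⊤ : ℕ∞) : WithTop ℕ∞) (uf (m := m) F) := by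
  rw [contDiff_iff_contDiffAt]
  intro x
  refine ContDiffAt.sqrt ?_ (P.in_pos x).ne'
  refine ContDiffAt.add ((P.smooth _ (rho_nonneg x)).comp x contDiff_rho.contDiffAt) ?_
  fun_prop

lemma has_u (x : Fin (m + 1) → ℝ) : Has2 (uf F) x (Af F a x) (Bf F x) := by
  have h1 := (Has2.comp_rho (P.dF _ (rho_nonneg x))).add ((Has2.of_t x).mul (Has2.of_t x))
  have h2 := Has2.comp (φ := Real.sqrt) (Real.hasDerivAt_sqrt (P.in_pos x).ne') h1
  have hu := P.u_pos x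
  refine Has2.congr h2 ?_ ?_
  · simp only [Af]; change 1 / (2 * uf F x) * _ = _; field_simp; ring
  · simp only [Bf]; change 1 / (2 * uf F x) * _ = _; field_simp; ring

lemma has_uinv (x : Fin (m + 1) → ℝ) : Has2 (fun x => (uf F x)⁻¹) x
    (-(uf F x ^ 2)⁻¹ * Af F a x) (-(uf F x ^ 2)⁻¹ * Bf F x) :=
  Has2.comp (φ := fun y => y⁻¹) (hasDerivAt_inv (P.u_pos x).ne') (P.has_u x)

lemma has_A (x : Fin (m + 1) → ℝ) : Has2 (Af F a) x
    (a (rho x) * (a (rho x) + b (rho x)) * F (rho x) / (4 * uf F x)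
      - (a (rho x) * F (rho x)) ^ 2 / (4 * uf F x ^ 3))
    (-(a (rho x) * F (rho x) * x 0) / (2 * uf F x ^ 3)) := by
  have h1 := (((Has2.comp_rho (P.da _ (rho_nonneg x))).mul
    (Has2.comp_rho (P.dF _ (rho_nonneg x)))).const_mul (1 / 2)).mul (P.has_uinv x)
  have hu := P.u_pos x
  refine Has2.congr h1 ?_ ?_
  · simp only [Af]; field_simp; ring
  · simp only [Bf]; field_simp; ring

lemma has_B (x : Fin (m + 1) → ℝ) : Has2 (Bf F) x
    (-(a (rho x) * F (rho x) * x 0) / (2 * uf F x ^ 3)) (F (rho x) / uf F x ^ 3) := by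
  have h1 := (Has2.of_t x).mul (P.has_uinv x)
  have hu := P.u_pos x
  refine Has2.congr h1 ?_ ?_
  · simp only [Af]; field_simp; ring
  · simp only [Bf]; rw [P.F_eq x]; field_simp; ring

lemma hess_u (x : Fin (m + 1) → ℝ) : hess (uf F) x = Mx (yv x)
    (a (rho x) * F (rho x) / uf F x)
    (a (rho x) * (a (rho x) + b (rho x)) * F (rho x) / uf F x
      - (a (rho x) * F (rho x)) ^ 2 / uf F x ^ 3)
    (-(a (rho x) * F (rho x) * x 0) / uf F x ^ 3) (-(a (rho x) * F (rho x) * x 0) / uf F x ^ 3)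
    (F (rho x) / uf F x ^ 3) := by
  rw [hess_eq P.has_u (P.has_A x) (P.has_B x)]
  have hu := P.u_pos x
  congr 1
  · simp only [Af]; field_simp
  · field_simp
  · field_simp
  · field_simp

lemma D_eq (x : Fin (m + 1) → ℝ) :
    a (rho x) * F (rho x) ^ 2 * v (rho x) / uf F x ^ 4 =
    (a (rho x) * F (rho x) / uf F x +
      (a (rho x) * (a (rho x) + b (rho x)) * F (rho x) / uf F x
      - (a (rho x) * F (rho x)) ^ 2 / uf F x ^ 3) * rho x) * (F (rho x) / uf F x ^ 3) -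
    (-(a (rho x) * F (rho x) * x 0) / uf F x ^ 3) * (-(a (rho x) * F (rho x) * x 0) / uf F x ^ 3)
      * rho x := by
  have hu := P.u_pos x
  rw [P.hv _ (rho_nonneg x), P.F_eq x]
  field_simp
  ring

lemma posDef_u (x : Fin (m + 1) → ℝ) : (hess (uf F) x).PosDef := by
  have hu := P.u_pos x
  have hF := P.Fpos _ (rho_nonneg x)
  have ha := P.apos _ (rho_nonneg x)
  have hv := P.vpos _ (rho_nonneg x)
  rw [P.hess_u x]
  refine Mx_posDef _ (yv_zero x) (rho x) rfl _ _ _ _ (by positivity) (by positivity) ?_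
  rw [← P.D_eq x]
  positivity

lemma det_u (x : Fin (m + 1) → ℝ) : (hess (uf F) x).det =
    (a (rho x) ^ m * F (rho x) ^ (m + 1) * v (rho x)) / uf F x ^ (m + 3) := by
  have hu := P.u_pos x
  have hF := P.Fpos _ (rho_nonneg x)
  have ha := P.apos _ (rho_nonneg x)
  rw [P.hess_u x, Mx_det _ (yv_zero x) (rho x) rfl _ _ _ _ _ (by positivity), ← P.D_eq x]
  rw [div_pow, mul_pow]
  field_simp
  ring

end Prof

noncomputable def om (m : ℕ) (F a v : ℝ → ℝ) (ρ : ℝ) : ℝ :=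
  (a ρ ^ m * F ρ ^ (m + 1) * v ρ) ^ (-(((m : ℝ) + 2) / ((m : ℝ) + 3)))

noncomputable def ell (m : ℕ) (a v : ℝ → ℝ) (ρ : ℝ) : ℝ :=
  -(((m : ℝ) + 2) / 2) * (a ρ * (1 + (2 * v ρ - 1) * ((m : ℝ) + 2 * ρ * a ρ)⁻¹))

namespace Prof

variable (P : Prof m F a b v)
include P

lemma w_eq : wfun (uf (m := m) F) = fun x => om m F a v (rho x) * uf F x ^ (m + 2) := by
  funext x
  have hu := P.u_pos x
  have hF := P.Fpos _ (rho_nonneg x)
  have ha := P.apos _ (rho_nonneg x)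
  have hv := P.vpos _ (rho_nonneg x)
  have e : -((((m + 1 : ℕ) : ℝ) + 1) / (((m + 1 : ℕ) : ℝ) + 2)) =
      -(((m : ℝ) + 2) / ((m : ℝ) + 3)) := by push_cast; ring_nf
  rw [wfun, P.det_u x, e, Real.div_rpow (by positivity) (by positivity), om, div_eq_mul_inv,
    ← Real.rpow_neg (by positivity), neg_neg, ← Real.rpow_natCast (uf F x) (m + 3),
    ← Real.rpow_mul hu.le, ← Real.rpow_natCast (uf F x) (m + 2)]
  congr 2
  push_cast
  field_simp

lemma den_pos (hm : 0 < m) {ρ : ℝ} (h : 0 ≤ ρ) : 0 < (m : ℝ) + 2 * ρ * a ρ := by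
  have := P.apos _ h
  have : (0 : ℝ) < m := by exact_mod_cast hm
  positivity

lemma d_om (hm : 0 < m) {ρ : ℝ} (h : 0 ≤ ρ) :
    HasDerivAt (om m F a v) (ell m a v ρ * om m F a v ρ) ρ := by
  have hF := P.Fpos _ h
  have ha := P.apos _ h
  have hv := P.vpos _ h
  have hd := P.den_pos hm h
  obtain ⟨k, rfl⟩ : ∃ k, m = k + 1 := ⟨m - 1, by omega⟩
  have h1 := (((P.da _ h).pow (k + 1)).mul ((P.dF _ h).pow (k + 1 + 1))).mul (P.dv _ h)
  have hpos : 0 < a ρ ^ (k + 1) * F ρ ^ (k + 1 + 1) * v ρ := by positivity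
  have h2 := h1.rpow_const (p := -((((k + 1 : ℕ) : ℝ) + 2) / (((k + 1 : ℕ) : ℝ) + 3)))
    (Or.inl hpos.ne')
  refine HasDerivAt.congr_deriv h2 ?_
  simp only [Pi.mul_apply, Pi.pow_apply, om, ell, Nat.add_sub_cancel]
  rw [Real.rpow_sub_one hpos.ne']
  generalize (a ρ ^ (k + 1) * F ρ ^ (k + 1 + 1) * v ρ) ^
    (-((((k + 1 : ℕ) : ℝ) + 2) / (((k + 1 : ℕ) : ℝ) + 3))) = W
  push_cast at hd ⊢
  field_simp
  ring

lemma d_ell (hm : 0 < m) {ρ : ℝ} (h : 0 ≤ ρ) :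
    HasDerivAt (ell m a v) (-(((m : ℝ) + 2) / 2) * (a ρ * (b ρ - a ρ) / 2 *
      (1 + (2 * v ρ - 1) * ((m : ℝ) + 2 * ρ * a ρ)⁻¹) + a ρ *
      ((v ρ * (a ρ * (1 + ((m : ℝ) + 3) * (2 * v ρ - 1) /
        ((m : ℝ) + 2 * ρ * a ρ)) - m * b ρ)) * ((m : ℝ) + 2 * ρ * a ρ)⁻¹ -
        (2 * v ρ - 1) * (2 * a ρ + ρ * (a ρ * (b ρ - a ρ))) / ((m : ℝ) + 2 * ρ * a ρ) ^ 2))) ρ := by
  have hd := P.den_pos hm h
  have h0 : HasDerivAt (fun ρ => (m : ℝ) + 2 * ρ * a ρ)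
      (2 * a ρ + ρ * (a ρ * (b ρ - a ρ))) ρ := by
    have := (((hasDerivAt_id ρ).const_mul 2).mul (P.da _ h)).const_add (m : ℝ)
    refine HasDerivAt.congr_deriv this ?_
    simp only [id]; ring
  have h1 := ((P.da _ h).mul (((((P.dv _ h).const_mul 2).sub_const 1).mul
    (h0.inv hd.ne')).const_add 1)).const_mul (-(((m : ℝ) + 2) / 2))
  refine HasDerivAt.congr_deriv h1 ?_
  simp only [Pi.mul_apply, Pi.inv_apply]
  ring

lemma has_upow (k : ℕ) (x : Fin (m + 1) → ℝ) : Has2 (fun x => uf F x ^ (k + 1)) x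
    (((k : ℝ) + 1) * uf F x ^ k * Af F a x) (((k : ℝ) + 1) * uf F x ^ k * Bf F x) := by
  have := Has2.comp (φ := fun y => y ^ (k + 1)) (hasDerivAt_pow (k + 1) (uf F x)) (P.has_u x)
  refine Has2.congr this ?_ ?_ <;> simp

theorem affineMaximal (hm : 0 < m) : AffineMaximal (uf (m := m) F) := by
  intro x
  have hw : ∀ x : Fin (m + 1) → ℝ, Has2 (fun x => om m F a v (rho x) * uf F x ^ (m + 2)) x
      (om m F a v (rho x) * ((((m : ℝ) + 2) * (uf F x ^ (m + 1) * Af F a x)) +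
        ell m a v (rho x) * uf F x ^ (m + 2)))
      (om m F a v (rho x) * (((m : ℝ) + 2) * (uf F x ^ (m + 1) * Bf F x))) := by
    intro x
    have := (Has2.comp_rho (P.d_om hm (rho_nonneg x))).mul (P.has_upow (m + 1) x)
    refine Has2.congr this ?_ ?_ <;> push_cast <;> ring
  have hA := (Has2.comp_rho (P.d_om hm (rho_nonneg x))).mul
    (((((P.has_upow m x).mul (P.has_A x))).const_mul ((m : ℝ) + 2)).add
      ((Has2.comp_rho (P.d_ell hm (rho_nonneg x))).mul (P.has_upow (m + 1) x)))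
  have hB := (Has2.comp_rho (P.d_om hm (rho_nonneg x))).mul
    ((((P.has_upow m x).mul (P.has_B x))).const_mul ((m : ℝ) + 2))
  have hu := P.u_pos x
  have hF := P.Fpos _ (rho_nonneg x)
  have ha := P.apos _ (rho_nonneg x)
  have hv := P.vpos _ (rho_nonneg x)
  have hd := P.den_pos hm (rho_nonneg x)
  rw [P.w_eq, hess_eq hw hA hB]
  simp only [mul_assoc, ← Finset.mul_sum]
  refine mul_eq_zero_of_right _ ?_
  rw [P.hess_u x, Mx_inv _ (yv_zero x) (rho x) rfl _ _ _ _ _ (by positivity) (P.D_eq x)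
    (by positivity), Mx_pair _ (yv_zero x) (rho x) rfl]
  simp only [Af, Bf, ell]
  have hvv := P.hv _ (rho_nonneg x)
  have hFF := P.F_eq x
  generalize om m F a v (rho x) = W
  generalize F (rho x) = f at *
  generalize a (rho x) = A at *
  generalize v (rho x) = V at *
  generalize b (rho x) = B at *
  generalize rho x = r at *
  generalize uf F x = u at *
  generalize x 0 = t at *
  simp only [pow_succ]
  generalize u ^ m = U
  push_cast
  generalize (m : ℝ) = M at *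
  subst hvv hFF
  clear hw hA hB
  obtain ⟨D, hD⟩ : ∃ D, D = M + 2 * r * A := ⟨_, rfl⟩
  have hD' : M + 2 * (r * A) = D := by rw [hD]; ring
  rw [← hD] at hd
  simp only [← hD, hD']
  obtain rfl : M = D - 2 * r * A := by rw [hD]; ring
  field_simp
  ring

lemma not_quadratic : ¬ IsQuadratic (uf (m := m) F) := by
  rintro ⟨A, c, d, h⟩
  have key : ∀ t : ℝ, Real.sqrt (1 + t * t) = (1 / 2) * A 0 0 * t * t + c 0 * t + d := by
    intro t
    have h1 := h (Pi.single 0 t)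
    have h2 : rho (Pi.single 0 t : Fin (m + 1) → ℝ) = 0 := by
      refine Finset.sum_eq_zero fun k _ => ?_
      by_cases hk : k = 0
      · subst hk; simp [yv_zero]
      · simp [yv, ev, hk]
    simp only [uf, h2, P.F0, Pi.single_eq_same] at h1
    rw [h1]
    simp only [Pi.single_apply, mul_ite, mul_zero, ite_mul, zero_mul, Finset.sum_ite_eq',
      Finset.mem_univ, if_true]
    ring
  have e0 := key 0
  have e1 := key (3 / 4)
  have e2 := key (-(3 / 4))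
  have e3 := key (4 / 3)
  rw [show (1 : ℝ) + 0 * 0 = 1 ^ 2 by ring, Real.sqrt_sq (by norm_num)] at e0
  rw [show (1 : ℝ) + 3 / 4 * (3 / 4) = (5 / 4) ^ 2 by ring, Real.sqrt_sq (by norm_num)] at e1
  rw [show (1 : ℝ) + -(3 / 4) * -(3 / 4) = (5 / 4) ^ 2 by ring, Real.sqrt_sq (by norm_num)] at e2
  rw [show (1 : ℝ) + 4 / 3 * (4 / 3) = (5 / 3) ^ 2 by ring, Real.sqrt_sq (by norm_num)] at e3
  linarith

end Prof

end Vale.Agent.P252
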